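/-
TetraLib (row S0324–S0329): common definitions.  Owner: helper4.  No sorry here.
Blueprint: notes/tetra_blueprint.md in the graded repository.
-/
import Mathlib

set_option autoImplicit false

open MeasureTheory
open scoped ENNReal

namespace Crest.Agent.Tetra

/-- Euclidean 3-space. -/
abbrev E3 : Type := EuclideanSpace ℝ (Fin 3)

/-- Gram determinant of two vectors: squared area of the parallelogram they span. -/
noncomputable def gram (a b : E3) : ℝ := ‖a‖ ^ 2 * ‖b‖ ^ 2 - (inner ℝ a b) ^ 2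

/-- 3×3 determinant with rows `a`, `b`, `u` (= `⟪a × b, u⟫`). -/
def det3 (a b u : E3) : ℝ :=
  a 0 * (b 1 * u 2 - b 2 * u 1) - a 1 * (b 0 * u 2 - b 2 * u 0) + a 2 * (b 0 * u 1 - b 1 * u 0)

/-- Orthogonal projection onto `u^⊥` for a unit vector `u` (as written in the statements). -/
noncomputable def projU (u : E3) (y : E3) : E3 := y - inner ℝ y u • u

/-- Orthogonal projection onto `d^⊥` for a nonzero vector `d` (as written in S0328). -/
noncomputable def projD (d : E3) (y : E3) : E3 := y - (inner ℝ y d / ‖d‖ ^ 2) • d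

/-- The standard regular tetrahedron of the statements S0324/S0325. -/
noncomputable def Kstd : Set E3 :=
  convexHull ℝ {!₂[1, 0, 0], !₂[-1, 0, 0], !₂[0, 1, Real.sqrt 2], !₂[0, -1, Real.sqrt 2]}

/-- The parallelogram `c + [0,1] a + [0,1] b` (as written in S0327). -/
def par (c a b : E3) : Set E3 :=
  {x : E3 | ∃ s ∈ Set.Icc (0 : ℝ) 1, ∃ t ∈ Set.Icc (0 : ℝ) 1, x = c + s • a + t • b}

/-- The cylinder over the triangle `conv{p,q,r}` in direction `u` (as written in S0324/S0325). -/
def triCyl (u p q r : E3) : Set E3 :=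
  {x : E3 | ∃ b ∈ convexHull ℝ {p, q, r}, ∃ t : ℝ, x = b + t • u}

/-- The cylinder over the parallelogram `c + [0,1] a + [0,1] b` in direction `u` (S0327). -/
def parCyl (u c a b : E3) : Set E3 :=
  {x : E3 | ∃ s ∈ Set.Icc (0 : ℝ) 1, ∃ t ∈ Set.Icc (0 : ℝ) 1, ∃ τ : ℝ,
    x = c + s • a + t • b + τ • u}

/-- The cylinder over an arbitrary base `B` in direction `u` (S0327 part 2, S0329). -/
def setCyl (u : E3) (B : Set E3) : Set E3 :=
  {x : E3 | ∃ y ∈ B, ∃ τ : ℝ, x = y + τ • u}

/-- A cylinder with unit direction `u` and triangular base `conv{p,q,r}` in the plane `u^⊥`. -/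
structure TriCyl where
  u : E3
  p : E3
  q : E3
  r : E3
  hu : ‖u‖ = 1
  hp : inner ℝ p u = 0
  hq : inner ℝ q u = 0
  hr : inner ℝ r u = 0

/-- the point set of a `TriCyl`. -/
def TriCyl.carrier (T : TriCyl) : Set E3 := triCyl T.u T.p T.q T.r

/-- the base area of a `TriCyl` (Euclidean-normalised Hausdorff measure, as a real). -/
noncomputable def TriCyl.area (T : TriCyl) : ℝ :=
  (μHE[2] (convexHull ℝ ({T.p, T.q, T.r} : Set E3))).toReal

end Crest.Agent.Tetra
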