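/-
TetraLib (row S0324–S0329): area toolkit.  Owner: helper4.
μHE[2] of triangles / parallelograms in R^3, projections, oblique cylinders.
Core measure facts come from helper5's `Crest.Agent.S0324Lib.Area`.
All statements are proved; they are frozen (other modules depend on them).
-/
import Crest.Agent.TetraLib.Defs
import Crest.Agent.S0324Lib.Area

set_option autoImplicit false

open MeasureTheory
open scoped ENNReal

namespace Crest.Agent.Tetra

theorem inner_eq3 (a b : E3) : inner ℝ a b = a 0 * b 0 + a 1 * b 1 + a 2 * b 2 := by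
  simp [PiLp.inner_apply, Fin.sum_univ_three]
  ring

theorem norm_sq_eq3 (a : E3) : ‖a‖ ^ 2 = a 0 ^ 2 + a 1 ^ 2 + a 2 ^ 2 := by
  rw [← real_inner_self_eq_norm_sq, inner_eq3]; ring

theorem gram_nonneg (a b : E3) : 0 ≤ gram a b := by
  unfold gram
  have h := abs_real_inner_le_norm a b
  have h2 : (inner ℝ a b) ^ 2 ≤ (‖a‖ * ‖b‖) ^ 2 := by
    rw [← sq_abs (inner ℝ a b)]
    exact pow_le_pow_left₀ (abs_nonneg _) h 2
  nlinarith [h2]

theorem gram_projU (a b u : E3) (hu : ‖u‖ = 1) :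
    gram (projU u a) (projU u b) = (det3 a b u) ^ 2 := by
  have hu' : u 0 ^ 2 + u 1 ^ 2 + u 2 ^ 2 = 1 := by rw [← norm_sq_eq3, hu]; norm_num
  simp only [gram, det3, projU, norm_sq_eq3, inner_eq3, PiLp.sub_apply, PiLp.smul_apply, smul_eq_mul]
  linear_combination
    ((a 0 ^ 2 + a 1 ^ 2 + a 2 ^ 2) * (b 0 * u 0 + b 1 * u 1 + b 2 * u 2) ^ 2 +
      (a 0 * u 0 + a 1 * u 1 + a 2 * u 2) ^ 2 * (b 0 ^ 2 + b 1 ^ 2 + b 2 ^ 2) -
      2 * (a 0 * b 0 + a 1 * b 1 + a 2 * b 2) * (a 0 * u 0 + a 1 * u 1 + a 2 * u 2) *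
        (b 0 * u 0 + b 1 * u 1 + b 2 * u 2) -
      ((a 0 ^ 2 + a 1 ^ 2 + a 2 ^ 2) * (b 0 ^ 2 + b 1 ^ 2 + b 2 ^ 2) -
        (a 0 * b 0 + a 1 * b 1 + a 2 * b 2) ^ 2)) * hu'

theorem det3_sq_of_perp (a b e : E3) (he : ‖e‖ = 1) (ha : inner ℝ a e = 0) (hb : inner ℝ b e = 0) :
    (det3 a b e) ^ 2 = gram a b := by
  have he' : e 0 ^ 2 + e 1 ^ 2 + e 2 ^ 2 = 1 := by rw [← norm_sq_eq3, he]; norm_num
  rw [inner_eq3] at ha hb
  simp only [gram, det3, norm_sq_eq3, inner_eq3]
  linear_combination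
    ((a 0 ^ 2 + a 1 ^ 2 + a 2 ^ 2) * (b 0 ^ 2 + b 1 ^ 2 + b 2 ^ 2) -
        (a 0 * b 0 + a 1 * b 1 + a 2 * b 2) ^ 2) * he' +
      (2 * (a 0 * b 0 + a 1 * b 1 + a 2 * b 2) * (b 0 * e 0 + b 1 * e 1 + b 2 * e 2) -
        (b 0 ^ 2 + b 1 ^ 2 + b 2 ^ 2) * (a 0 * e 0 + a 1 * e 1 + a 2 * e 2)) * ha +
      (-(a 0 ^ 2 + a 1 ^ 2 + a 2 ^ 2) * (b 0 * e 0 + b 1 * e 1 + b 2 * e 2)) * hb

theorem inner_projU_self (u y : E3) (hu : ‖u‖ = 1) : inner ℝ (projU u y) u = 0 := by
  unfold projU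
  rw [inner_sub_left, inner_smul_left, real_inner_self_eq_norm_sq, hu]
  simp

theorem norm_normalize (d : E3) (hd : d ≠ 0) : ‖(‖d‖⁻¹ • d : E3)‖ = 1 := by
  rw [norm_smul, norm_inv, norm_norm, inv_mul_cancel₀ (norm_ne_zero_iff.mpr hd)]

/-- `projD d` is `projU` of the normalised vector. -/
theorem projD_eq_projU (d y : E3) (hd : d ≠ 0) : projD d y = projU (‖d‖⁻¹ • d) y := by
  unfold projD projU
  rw [inner_smul_right, smul_smul]
  congr 2
  field_simp

theorem inner_projD_self (d y : E3) (hd : d ≠ 0) : inner ℝ (projD d y) d = 0 := by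
  have hn : ‖d‖ ≠ 0 := norm_ne_zero_iff.mpr hd
  unfold projD
  rw [inner_sub_left, inner_smul_left, real_inner_self_eq_norm_sq]
  simp
  field_simp
  ring

theorem det3_smul_right (a b d : E3) (c : ℝ) : det3 a b (c • d) = c * det3 a b d := by
  simp only [det3, PiLp.smul_apply, smul_eq_mul]; ring

theorem projU_sub (u x y : E3) : projU u x - projU u y = projU u (x - y) := by
  unfold projU
  rw [inner_sub_left, sub_smul]; abel

theorem gram_projD (a b d : E3) (hd : d ≠ 0) :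
    gram (projD d a) (projD d b) = (det3 a b d) ^ 2 / ‖d‖ ^ 2 := by
  have hn : ‖d‖ ≠ 0 := norm_ne_zero_iff.mpr hd
  rw [projD_eq_projU d a hd, projD_eq_projU d b hd, gram_projU _ _ _ (norm_normalize d hd),
    det3_smul_right]
  field_simp

/-! ### convex hull of three points -/

theorem mem_convexHull_triple {P Q R : E3} {α β γ : ℝ} (hα : 0 ≤ α) (hβ : 0 ≤ β) (hγ : 0 ≤ γ)
    (h : α + β + γ = 1) : α • P + β • Q + γ • R ∈ convexHull ℝ ({P, Q, R} : Set E3) := by
  have hP : P ∈ convexHull ℝ ({P, Q, R} : Set E3) := subset_convexHull ℝ _ (by simp)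
  have hQ : Q ∈ convexHull ℝ ({P, Q, R} : Set E3) := subset_convexHull ℝ _ (by simp)
  have hR : R ∈ convexHull ℝ ({P, Q, R} : Set E3) := subset_convexHull ℝ _ (by simp)
  have key := (convex_convexHull ℝ ({P, Q, R} : Set E3)).sum_mem (t := Finset.univ)
    (w := ![α, β, γ]) (z := ![P, Q, R])
    (by intro i _; fin_cases i <;> simp [hα, hβ, hγ])
    (by simp [Fin.sum_univ_three, h])
    (by intro i _; fin_cases i <;> simp [hP, hQ, hR])
  simpa [Fin.sum_univ_three] using key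

/-- every point of a triangle is a convex combination of the vertices. -/
theorem exists_of_mem_convexHull_triple {P Q R x : E3}
    (hx : x ∈ convexHull ℝ ({P, Q, R} : Set E3)) :
    ∃ α β γ : ℝ, 0 ≤ α ∧ 0 ≤ β ∧ 0 ≤ γ ∧ α + β + γ = 1 ∧ x = α • P + β • Q + γ • R := by
  have hconv : Convex ℝ {y : E3 | ∃ α β γ : ℝ, 0 ≤ α ∧ 0 ≤ β ∧ 0 ≤ γ ∧ α + β + γ = 1 ∧
      y = α • P + β • Q + γ • R} := by
    rintro y ⟨α, β, γ, hα, hβ, hγ, hs, rfl⟩ z ⟨α', β', γ', hα', hβ', hγ', hs', rfl⟩ a b ha hb hab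
    refine ⟨a * α + b * α', a * β + b * β', a * γ + b * γ', by positivity, by positivity,
      by positivity, ?_, ?_⟩
    · calc a * α + b * α' + (a * β + b * β') + (a * γ + b * γ')
          = a * (α + β + γ) + b * (α' + β' + γ') := by ring
        _ = 1 := by rw [hs, hs', mul_one, mul_one, hab]
    · module
  refine convexHull_min ?_ hconv hx
  intro y hy
  simp only [Set.mem_insert_iff, Set.mem_singleton_iff] at hy
  rcases hy with rfl | rfl | rfl
  · exact ⟨1, 0, 0, by norm_num, by norm_num, by norm_num, by norm_num, by simp⟩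
  · exact ⟨0, 1, 0, by norm_num, by norm_num, by norm_num, by norm_num, by simp⟩
  · exact ⟨0, 0, 1, by norm_num, by norm_num, by norm_num, by norm_num, by simp⟩

theorem projU_lin (u : E3) (α β γ : ℝ) (P Q R : E3) :
    projU u (α • P + β • Q + γ • R) = α • projU u P + β • projU u Q + γ • projU u R := by
  unfold projU
  simp only [inner_add_left, inner_smul_left, RCLike.conj_to_real]
  module

/-- the projection of a triangle is the triangle of the projections. -/
theorem projU_image_tri (u P Q R : E3) :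
    (fun y => projU u y) '' convexHull ℝ ({P, Q, R} : Set E3) =
      convexHull ℝ ({projU u P, projU u Q, projU u R} : Set E3) := by
  ext x
  constructor
  · rintro ⟨y, hy, rfl⟩
    obtain ⟨α, β, γ, hα, hβ, hγ, hs, rfl⟩ := exists_of_mem_convexHull_triple hy
    show projU u _ ∈ _
    rw [projU_lin]
    exact mem_convexHull_triple hα hβ hγ hs
  · intro hx
    obtain ⟨α, β, γ, hα, hβ, hγ, hs, rfl⟩ := exists_of_mem_convexHull_triple hx
    refine ⟨α • P + β • Q + γ • R, mem_convexHull_triple hα hβ hγ hs, ?_⟩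
    show projU u _ = _
    rw [projU_lin]

/-! ### areas -/

/-- area of a triangle in R^3 (all cases, including degenerate ones). -/
theorem muHE_tri (p q r : E3) :
    μHE[2] (convexHull ℝ ({p, q, r} : Set E3)) =
      ENNReal.ofReal (Real.sqrt (gram (q - p) (r - p)) / 2) := by
  unfold gram
  exact Crest.Agent.S0324Lib.area_triangle p q r

/-- area of the projection onto `u^⊥` (unit `u`) of a triangle. -/
theorem muHE_tri_projU (P Q R u : E3) (hu : ‖u‖ = 1) :
    μHE[2] (convexHull ℝ ({projU u P, projU u Q, projU u R} : Set E3)) =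
      ENNReal.ofReal (|det3 (Q - P) (R - P) u| / 2) := by
  rw [muHE_tri, projU_sub, projU_sub, gram_projU _ _ _ hu, Real.sqrt_sq_eq_abs]

/-- area of the projection onto `d^⊥` (`d ≠ 0`) of a triangle. -/
theorem muHE_tri_projD (P Q R d : E3) (hd : d ≠ 0) :
    μHE[2] (convexHull ℝ ({projD d P, projD d Q, projD d R} : Set E3)) =
      ENNReal.ofReal (|det3 (Q - P) (R - P) d| / (2 * ‖d‖)) := by
  have hn : 0 < ‖d‖ := norm_pos_iff.mpr hd
  rw [projD_eq_projU d P hd, projD_eq_projU d Q hd, projD_eq_projU d R hd,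
    muHE_tri_projU _ _ _ _ (norm_normalize d hd), det3_smul_right, abs_mul,
    abs_of_pos (inv_pos.mpr hn)]
  congr 1
  field_simp

/-- Plain Hausdorff measure `μH[2]` is a positive finite multiple of `μHE[2]` (used only in S0324). -/
theorem exists_muH_factor :
    ∃ κ : ℝ, 0 < κ ∧ ∀ s : Set E3, μH[(2 : ℝ)] s = ENNReal.ofReal κ * μHE[2] s := by
  set c : NNReal := Measure.addHaarScalarFactor
    (volume : Measure (EuclideanSpace ℝ (Fin 2))) μH[((2 : ℕ) : ℝ)] with hc
  have hc0 : c ≠ 0 := Measure.addHaarScalarFactor_volume_hausdorffMeasure_ne_zero 2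
  have hcpos : (0 : ℝ) < c := by
    exact_mod_cast pos_iff_ne_zero.mpr hc0
  refine ⟨(c : ℝ)⁻¹, inv_pos.mpr hcpos, fun s => ?_⟩
  have h : (μHE[2] : Measure E3) s = (c : ℝ≥0∞) * μH[(2 : ℝ)] s := by
    rw [Measure.euclideanHausdorffMeasure_def, Measure.smul_apply]
    simp [hc, ENNReal.smul_def]
  have hc' : ENNReal.ofReal ((c : ℝ)⁻¹) = (c : ℝ≥0∞)⁻¹ := by
    rw [ENNReal.ofReal_inv_of_pos hcpos, ENNReal.ofReal_coe_nnreal]
  rw [h, hc', ← mul_assoc, ENNReal.inv_mul_cancel (by exact_mod_cast hc0) ENNReal.coe_ne_top,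
    one_mul]

/-- a set contained in a line has zero area. -/
theorem muHE_line_eq_zero (p d : E3) (B : Set E3) (hB : ∀ x ∈ B, ∃ t : ℝ, x = p + t • d) :
    μHE[2] B = 0 := by
  have hsub : B ⊆ Set.range (fun t : ℝ => p + t • d) := by
    intro x hx
    obtain ⟨t, rfl⟩ := hB x hx
    exact ⟨t, rfl⟩
  have hlip : LipschitzWith ‖d‖₊ (fun t : ℝ => p + t • d) := by
    refine LipschitzWith.of_dist_le_mul (fun s t => ?_)
    rw [dist_eq_norm, dist_eq_norm, add_sub_add_left_eq_sub, ← sub_smul, norm_smul, mul_comm]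
    simp
  have hdim : dimH (Set.range (fun t : ℝ => p + t • d)) ≤ 1 := by
    refine (hlip.dimH_range_le).trans ?_
    rw [Real.dimH_univ]
  have h12 : (1 : ℝ≥0∞) < ((2 : NNReal) : ℝ≥0∞) := by
    exact_mod_cast (by norm_num : (1 : NNReal) < 2)
  have h0 : μH[((2 : NNReal) : ℝ)] (Set.range (fun t : ℝ => p + t • d)) = 0 :=
    hausdorffMeasure_of_dimH_lt (lt_of_le_of_lt hdim h12)
  have h1 : μH[((2 : NNReal) : ℝ)] B = 0 := measure_mono_null hsub h0
  rw [Measure.euclideanHausdorffMeasure_def, Measure.smul_apply]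
  have h2 : μH[((2 : ℕ) : ℝ)] B = 0 := by
    have : (((2 : ℕ) : ℝ)) = ((2 : NNReal) : ℝ) := by norm_num
    rw [this]; exact h1
  rw [h2, smul_zero]

/-- area of a parallelogram in R^3 (all cases, including degenerate ones). -/
theorem muHE_par (c a b : E3) :
    μHE[2] (par c a b) = ENNReal.ofReal (Real.sqrt (gram a b)) := by
  unfold gram par
  exact Crest.Agent.S0324Lib.area_parallelogram c a b

/-- area of the projection onto `u^⊥` (unit `u`) of a parallelogram. -/
theorem muHE_par_projU (C A B u : E3) (hu : ‖u‖ = 1) :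
    μHE[2] (par (projU u C) (projU u A) (projU u B)) = ENNReal.ofReal |det3 A B u| := by
  rw [muHE_par, gram_projU _ _ _ hu, Real.sqrt_sq_eq_abs]

/-- a bounded subset of a plane through the origin has finite area. -/
theorem muHE_lt_top_of_bounded_plane (u : E3) (hu : ‖u‖ = 1) (B : Set E3)
    (hB : Bornology.IsBounded B) (hsub : ∀ x ∈ B, inner ℝ x u = 0) : μHE[2] B < ⊤ := by
  have hu0 : u ≠ 0 := by
    intro h
    rw [h, norm_zero] at hu
    exact zero_ne_one hu
  exact Crest.Agent.S0324Lib.area_lt_top_of_isBounded_of_inner_eq_zero hu0 hB hsub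

/-- relatively open enlargement of a compact base with arbitrarily small area increase. -/
theorem exists_open_base (u : E3) (hu : ‖u‖ = 1) (B₀ : Set E3) (hB₀ : IsCompact B₀)
    (hsub : ∀ x ∈ B₀, inner ℝ x u = 0) (η : ℝ) (hη : 0 < η) :
    ∃ B : Set E3, B₀ ⊆ B ∧ Bornology.IsBounded B ∧
      (∃ O : Set E3, IsOpen O ∧ B = O ∩ {x | inner ℝ x u = 0}) ∧
      (μHE[2] B).toReal ≤ (μHE[2] B₀).toReal + η := by
  set Pl : Set E3 := {x | inner ℝ x u = 0} with hPl
  set μ' : Measure E3 := (μHE[2] : Measure E3).restrict Pl with hμ'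
  have hfin : ∀ r : ℝ, μ' (Metric.cthickening r B₀) ≠ ⊤ := by
    intro r
    rw [hμ', Measure.restrict_apply Metric.isClosed_cthickening.measurableSet]
    exact (muHE_lt_top_of_bounded_plane u hu _
      (hB₀.isBounded.cthickening.subset Set.inter_subset_left) (fun x hx => hx.2)).ne
  have htend := tendsto_measure_cthickening_of_isClosed (μ := μ') ⟨1, one_pos, hfin 1⟩
    hB₀.isClosed
  have hμB₀ : μ' B₀ = μHE[2] B₀ := by
    rw [hμ', Measure.restrict_apply hB₀.measurableSet]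
    congr 1
    exact Set.inter_eq_left.mpr hsub
  have hB₀fin : μHE[2] B₀ ≠ ⊤ := (muHE_lt_top_of_bounded_plane u hu B₀ hB₀.isBounded hsub).ne
  have hlt : μ' B₀ < μ' B₀ + ENNReal.ofReal η :=
    ENNReal.lt_add_right (hμB₀ ▸ hB₀fin) (by simpa using hη)
  have hev : ∀ᶠ r in nhdsWithin (0 : ℝ) (Set.Ioi 0),
      μ' (Metric.cthickening r B₀) < μ' B₀ + ENNReal.ofReal η :=
    (htend.eventually (gt_mem_nhds hlt)).filter_mono nhdsWithin_le_nhds
  obtain ⟨r, hr, hr0⟩ := (hev.and self_mem_nhdsWithin).exists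
  have hr0' : 0 < r := hr0
  refine ⟨Metric.thickening r B₀ ∩ Pl, ?_, ?_, ⟨Metric.thickening r B₀, Metric.isOpen_thickening, rfl⟩, ?_⟩
  · intro x hx
    exact ⟨Metric.self_subset_thickening hr0' _ hx, hsub x hx⟩
  · exact (hB₀.isBounded.cthickening (δ := r)).subset
      (Set.inter_subset_left.trans (Metric.thickening_subset_cthickening _ _))
  · have h1 : μHE[2] (Metric.thickening r B₀ ∩ Pl) ≤ μ' (Metric.cthickening r B₀) := by
      rw [hμ', Measure.restrict_apply Metric.isClosed_cthickening.measurableSet]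
      exact measure_mono (Set.inter_subset_inter_left _ (Metric.thickening_subset_cthickening _ _))
    have h2 : μHE[2] (Metric.thickening r B₀ ∩ Pl) ≤ μHE[2] B₀ + ENNReal.ofReal η := by
      refine h1.trans (hr.le.trans ?_)
      rw [hμB₀]
    calc (μHE[2] (Metric.thickening r B₀ ∩ Pl)).toReal
        ≤ (μHE[2] B₀ + ENNReal.ofReal η).toReal :=
          ENNReal.toReal_mono (by simp [hB₀fin]) h2
      _ = (μHE[2] B₀).toReal + η := by
          rw [ENNReal.toReal_add hB₀fin ENNReal.ofReal_ne_top, ENNReal.toReal_ofReal hη.le]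

/-! ### oblique cylinders -/

/-- The `TriCyl` with direction `d/‖d‖` whose base is the orthogonal projection of the (arbitrary)
triangle `P Q R`: it is the oblique cylinder `conv{P,Q,R} + ℝ d`. -/
noncomputable def TriCyl.ofOblique (d P Q R : E3) (hd : d ≠ 0) : TriCyl where
  u := ‖d‖⁻¹ • d
  p := projU (‖d‖⁻¹ • d) P
  q := projU (‖d‖⁻¹ • d) Q
  r := projU (‖d‖⁻¹ • d) R
  hu := norm_normalize d hd
  hp := inner_projU_self _ _ (norm_normalize d hd)
  hq := inner_projU_self _ _ (norm_normalize d hd)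
  hr := inner_projU_self _ _ (norm_normalize d hd)

/-- the oblique cylinder is contained in (in fact equals) the carrier of `ofOblique`. -/
theorem TriCyl.ofOblique_carrier (d P Q R : E3) (hd : d ≠ 0) :
    {x : E3 | ∃ b ∈ convexHull ℝ ({P, Q, R} : Set E3), ∃ t : ℝ, x = b + t • d} ⊆
      (TriCyl.ofOblique d P Q R hd).carrier := by
  rintro x ⟨b, hb, t, rfl⟩
  have hn : ‖d‖ ≠ 0 := norm_ne_zero_iff.mpr hd
  refine ⟨projU (‖d‖⁻¹ • d) b, ?_, inner ℝ b (‖d‖⁻¹ • d) + t * ‖d‖, ?_⟩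
  · have := projU_image_tri (‖d‖⁻¹ • d) P Q R
    show projU (‖d‖⁻¹ • d) b ∈ convexHull ℝ
      ({projU (‖d‖⁻¹ • d) P, projU (‖d‖⁻¹ • d) Q, projU (‖d‖⁻¹ • d) R} : Set E3)
    rw [← this]
    exact ⟨b, hb, rfl⟩
  · show b + t • d = projU (‖d‖⁻¹ • d) b + (inner ℝ b (‖d‖⁻¹ • d) + t * ‖d‖) • (‖d‖⁻¹ • d)
    unfold projU
    rw [add_smul, smul_smul (t * ‖d‖), mul_assoc, mul_inv_cancel₀ hn, mul_one]
    abel

theorem TriCyl.ofOblique_area (d P Q R : E3) (hd : d ≠ 0) :
    (TriCyl.ofOblique d P Q R hd).area = |det3 (Q - P) (R - P) d| / (2 * ‖d‖) := by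
  have hn : 0 < ‖d‖ := norm_pos_iff.mpr hd
  show (μHE[2] (convexHull ℝ
      ({projU (‖d‖⁻¹ • d) P, projU (‖d‖⁻¹ • d) Q, projU (‖d‖⁻¹ • d) R} : Set E3))).toReal = _
  rw [muHE_tri_projU _ _ _ _ (norm_normalize d hd), det3_smul_right,
    ENNReal.toReal_ofReal (by positivity), abs_mul, abs_of_pos (inv_pos.mpr hn)]
  field_simp

end Crest.Agent.Tetra
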