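/-
TetraLib (row S0324–S0329): the twisted sweep in coordinates.
Owner: helper3 (status 'S0324:Sweep').  Blueprint §3 (3a)–(3c).  Pure real algebra/IVT, no measure theory.
Coordinates: a point of R^3 is (x, y, √2·lam).
-/
import Crest.Agent.TetraLib.Defs

set_option autoImplicit false

namespace Crest.Agent.Tetra

/-- twist parameter. -/
noncomputable def cT : ℝ := 1 / 400

/-- radius function of the sweep: `R(t) = 1 + c²(t²+t⁴)/2 + (9/2)c³`. -/
noncomputable def Rsw (t : ℝ) : ℝ := 1 + cT ^ 2 * (t ^ 2 + t ^ 4) / 2 + 9 / 2 * cT ^ 3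

/-- `(x, y, lam)` lies in the lower sweep: there are `t ∈ [-1,1]`, `0 ≤ ρ ≤ R(t)` with
`y = ρ t/2 + c x (t²+1)/2`, `lam = ρ/2 + c x t` (and `|x| ≤ 1`). -/
def InLower (x y lam : ℝ) : Prop :=
  |x| ≤ 1 ∧ ∃ t ∈ Set.Icc (-1 : ℝ) 1, ∃ ρ ∈ Set.Icc (0 : ℝ) (Rsw t),
    y = ρ * t / 2 + cT * x * (t ^ 2 + 1) / 2 ∧ lam = ρ / 2 + cT * x * t

/-- auxiliary bound: `|a b| ≤ A B`. -/
theorem sweep_abs_mul_le {a b A B : ℝ} (ha : |a| ≤ A) (hb : |b| ≤ B) : |a * b| ≤ A * B := by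
  rw [abs_mul]
  exact mul_le_mul ha hb (abs_nonneg b) (le_trans (abs_nonneg a) ha)

/-- the sector lemma with `m = c x` as a free parameter. -/
theorem sweep_sector_aux (m y lam : ℝ) (h : |y| ≤ lam) :
    ∃ t ∈ Set.Icc (-1 : ℝ) 1, y = lam * t + m / 2 * (1 - t ^ 2) ∧ m * t ≤ lam := by
  have hy := abs_le.mp h
  have hlam : 0 ≤ lam := le_trans (abs_nonneg y) h
  have hcont : Continuous (fun t : ℝ => lam * t + m / 2 * (1 - t ^ 2)) := by fun_prop
  rcases lt_trichotomy m 0 with hm | hm | hm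
  · -- m < 0 : intermediate value on [max (-1) (lam/m), 1]
    have hm0 : m ≠ 0 := hm.ne
    have ha1 : max (-1 : ℝ) (lam / m) ≤ 1 :=
      max_le (by norm_num) (le_trans (div_nonpos_of_nonneg_of_nonpos hlam hm.le) zero_le_one)
    have hfa : lam * max (-1 : ℝ) (lam / m) + m / 2 * (1 - max (-1 : ℝ) (lam / m) ^ 2) ≤ y := by
      rcases le_total (-1 : ℝ) (lam / m) with h1 | h1
      · rw [max_eq_right h1]
        have e1 : lam * (lam / m) + m / 2 * (1 - (lam / m) ^ 2) = (lam ^ 2 + m ^ 2) / (2 * m) := by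
          field_simp
          ring
        rw [e1]
        have e2 : (lam ^ 2 + m ^ 2) / (2 * m) ≤ -lam := by
          rw [div_le_iff_of_neg (by linarith)]
          nlinarith [sq_nonneg (lam + m)]
        linarith [hy.1]
      · rw [max_eq_left h1]
        have e1 : lam * (-1 : ℝ) + m / 2 * (1 - (-1 : ℝ) ^ 2) = -lam := by ring
        rw [e1]
        linarith [hy.1]
    have hf1 : y ≤ lam * (1 : ℝ) + m / 2 * (1 - (1 : ℝ) ^ 2) := by
      have e1 : lam * (1 : ℝ) + m / 2 * (1 - (1 : ℝ) ^ 2) = lam := by ring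
      rw [e1]
      exact hy.2
    obtain ⟨t, ht, hft⟩ := intermediate_value_Icc ha1 hcont.continuousOn ⟨hfa, hf1⟩
    refine ⟨t, ⟨le_trans (le_max_left _ _) ht.1, ht.2⟩, hft.symm, ?_⟩
    have h2 : lam / m ≤ t := le_trans (le_max_right _ _) ht.1
    have h3 := mul_le_mul_of_nonpos_left h2 hm.le
    rwa [mul_div_cancel₀ _ hm.ne] at h3
  · -- m = 0
    subst hm
    rcases eq_or_lt_of_le hlam with h0 | h0
    · refine ⟨0, ⟨by norm_num, by norm_num⟩, ?_, by simp [hlam]⟩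
      have : y = 0 := by
        have := hy.1
        have := hy.2
        linarith
      rw [this]
      ring
    · refine ⟨y / lam, ⟨?_, ?_⟩, ?_, by simp [hlam]⟩
      · rw [le_div_iff₀ h0]
        linarith [hy.1]
      · rw [div_le_iff₀ h0]
        linarith [hy.2]
      · field_simp
        ring
  · -- m > 0 : intermediate value on [-1, min 1 (lam/m)]
    have hm0 : m ≠ 0 := hm.ne'
    have ha1 : (-1 : ℝ) ≤ min 1 (lam / m) :=
      le_min (by norm_num) (le_trans (by norm_num) (div_nonneg hlam hm.le))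
    have hfa : lam * (-1 : ℝ) + m / 2 * (1 - (-1 : ℝ) ^ 2) ≤ y := by
      have e1 : lam * (-1 : ℝ) + m / 2 * (1 - (-1 : ℝ) ^ 2) = -lam := by ring
      rw [e1]
      exact hy.1
    have hfb : y ≤ lam * min (1 : ℝ) (lam / m) + m / 2 * (1 - min (1 : ℝ) (lam / m) ^ 2) := by
      rcases le_total (1 : ℝ) (lam / m) with h1 | h1
      · rw [min_eq_left h1]
        have e1 : lam * (1 : ℝ) + m / 2 * (1 - (1 : ℝ) ^ 2) = lam := by ring
        rw [e1]
        exact hy.2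
      · rw [min_eq_right h1]
        have e1 : lam * (lam / m) + m / 2 * (1 - (lam / m) ^ 2) = (lam ^ 2 + m ^ 2) / (2 * m) := by
          field_simp
          ring
        rw [e1]
        have e2 : lam ≤ (lam ^ 2 + m ^ 2) / (2 * m) := by
          rw [le_div_iff₀ (by linarith)]
          nlinarith [sq_nonneg (lam - m)]
        linarith [hy.2]
    obtain ⟨t, ht, hft⟩ := intermediate_value_Icc ha1 hcont.continuousOn ⟨hfa, hfb⟩
    refine ⟨t, ⟨ht.1, le_trans ht.2 (min_le_left _ _)⟩, hft.symm, ?_⟩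
    have h2 : t ≤ lam / m := le_trans ht.2 (min_le_right _ _)
    have h3 := mul_le_mul_of_nonneg_left h2 hm.le
    rwa [mul_div_cancel₀ _ hm.ne'] at h3

/-- (3a) sector lemma. -/
theorem sector_coords (x y lam : ℝ) (h : |y| ≤ lam) :
    ∃ t ∈ Set.Icc (-1 : ℝ) 1, y = lam * t + cT / 2 * x * (1 - t ^ 2) ∧ cT * x * t ≤ lam := by
  obtain ⟨t, ht, h1, h2⟩ := sweep_sector_aux (cT * x) y lam h
  refine ⟨t, ht, ?_, h2⟩
  rw [h1]
  ring

/-- `|1 - t²| ≤ 1` for `|t| ≤ 1`. -/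
theorem sweep_one_sub_sq {t : ℝ} (ht : |t| ≤ 1) : |1 - t ^ 2| ≤ 1 := by
  have h1 : t ^ 2 ≤ 1 := (sq_le_one_iff_abs_le_one t).mpr ht
  have h2 : 0 ≤ t ^ 2 := sq_nonneg t
  exact abs_le.mpr ⟨by linarith, by linarith⟩

/-- interface lemma, step 1: a lower bound for `δ`. -/
theorem sweep_int_step1 (c x t a δ : ℝ) (hc : 0 < c) (hx : |x| ≤ 1) (ht : |t| ≤ 1) (ha : 0 ≤ a)
    (hA : a + 2 * (c * (x * t)) < δ) : -(2 * c) < δ := by
  have hxt := abs_le.mp (sweep_abs_mul_le hx ht)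
  have h1 := mul_le_mul_of_nonneg_left hxt.1 hc.le
  linarith

/-- interface lemma, step 2: `|x + t'/2| ≤ 3c/2`. -/
theorem sweep_int_step2 (c x y δ t' : ℝ) (hc : 0 < c) (hy : |y| ≤ 1) (ht' : |t'| ≤ 1)
    (hδ : |δ| ≤ 2 * c)
    (hU : -x = (1 - δ) / 2 * t' + c / 2 * y * (1 - t' ^ 2)) : |x + t' / 2| ≤ 3 / 2 * c := by
  have h1 := abs_le.mp (sweep_abs_mul_le hδ ht')
  have h2 := abs_le.mp (sweep_abs_mul_le hy (sweep_one_sub_sq ht'))
  have e1 := mul_le_mul_of_nonneg_left h2.1 hc.le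
  have e2 := mul_le_mul_of_nonneg_left h2.2 hc.le
  have h11 := h1.1
  have h12 := h1.2
  refine abs_le.mpr ⟨?_, ?_⟩
  · linarith
  · linarith

/-- interface lemma, step 3: a lower bound for `δ + c t t'`. -/
theorem sweep_int_step3 (c x t t' a δ : ℝ) (hc : 0 < c) (ht : |t| ≤ 1) (ha : 0 ≤ a)
    (hex : |x + t' / 2| ≤ 3 / 2 * c)
    (hA : a + 2 * (c * (x * t)) < δ) : -(3 * c ^ 2) < δ + c * (t * t') := by
  have h5 := abs_le.mp (sweep_abs_mul_le hex ht)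
  have e1 := mul_le_mul_of_nonneg_left h5.1 hc.le
  linarith

/-- the interface lemma for an arbitrary twist parameter `c > 0` (δ = 2·lam - 1). -/
theorem sweep_interface_aux (c x y δ t t' : ℝ) (hc : 0 < c)
    (htabs : |t| ≤ 1) (htabs' : |t'| ≤ 1)
    (hx : |x| ≤ 1) (hy : |y| ≤ 1)
    (hL : y = (1 + δ) / 2 * t + c / 2 * x * (1 - t ^ 2))
    (hU : -x = (1 - δ) / 2 * t' + c / 2 * y * (1 - t' ^ 2))
    (hA : c ^ 2 * (t ^ 2 + t ^ 4) / 2 + 9 / 2 * c ^ 3 + 2 * (c * (x * t)) < δ)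
    (hB : c ^ 2 * (t' ^ 2 + t' ^ 4) / 2 + 9 / 2 * c ^ 3 + 2 * (c * (y * t')) < -δ) : False := by
  have hq : |1 - t ^ 2| ≤ 1 := sweep_one_sub_sq htabs
  have hq' : |1 - t' ^ 2| ≤ 1 := sweep_one_sub_sq htabs'
  have ha0 : 0 ≤ c ^ 2 * (t ^ 2 + t ^ 4) / 2 + 9 / 2 * c ^ 3 := by positivity
  have ha0' : 0 ≤ c ^ 2 * (t' ^ 2 + t' ^ 4) / 2 + 9 / 2 * c ^ 3 := by positivity
  -- |δ| ≤ 2c
  have hδlo : -(2 * c) < δ := sweep_int_step1 c x t _ δ hc hx htabs ha0 hA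
  have hδhi : -(2 * c) < -δ := sweep_int_step1 c y t' _ (-δ) hc hy htabs' ha0' hB
  have hδabs : |δ| ≤ 2 * c := abs_le.mpr ⟨hδlo.le, by linarith⟩
  have hδabs' : |-δ| ≤ 2 * c := by rwa [abs_neg]
  -- |x + t'/2| ≤ 3c/2 and |y - t/2| ≤ 3c/2
  have hexabs : |x + t' / 2| ≤ 3 / 2 * c := sweep_int_step2 c x y δ t' hc hy htabs' hδabs hU
  have heyabs' : |-y + t / 2| ≤ 3 / 2 * c :=
    sweep_int_step2 c (-y) x (-δ) t hc hx htabs hδabs' (by rw [neg_neg, hL]; ring)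
  have heyabs : |y - t / 2| ≤ 3 / 2 * c := by
    have e : -y + t / 2 = -(y - t / 2) := by ring
    rwa [e, abs_neg] at heyabs'
  have heyabs2 : |y + (-t) / 2| ≤ 3 / 2 * c := by
    have e : y + (-t) / 2 = y - t / 2 := by ring
    rwa [e]
  -- |δ + c t t'| ≤ 3c²
  have hdlo : -(3 * c ^ 2) < δ + c * (t * t') := sweep_int_step3 c x t t' _ δ hc htabs ha0 hexabs hA
  have hdhi' : -(3 * c ^ 2) < -δ + c * (t' * (-t)) :=
    sweep_int_step3 c y t' (-t) _ (-δ) hc htabs' ha0' heyabs2 hB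
  have hdabs : |δ + c * (t * t')| ≤ 3 * c ^ 2 := by
    refine abs_le.mpr ⟨hdlo.le, ?_⟩
    have e : -δ + c * (t' * (-t)) = -(δ + c * (t * t')) := by ring
    rw [e] at hdhi'
    linarith
  -- product bounds
  have htt : |t * t'| ≤ 1 := by simpa using sweep_abs_mul_le htabs htabs'
  have htq : |t' * (1 - t ^ 2)| ≤ 1 := by simpa using sweep_abs_mul_le htabs' hq
  have htq' : |t * (1 - t' ^ 2)| ≤ 1 := by simpa using sweep_abs_mul_le htabs hq'
  have p1 := abs_le.mp (sweep_abs_mul_le hdabs htt)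
  have p2 := abs_le.mp (sweep_abs_mul_le hexabs htq)
  have p3 := abs_le.mp (sweep_abs_mul_le heyabs htq')
  -- the key identity
  have key : -(2 * c) * (x * t + y * t') =
      -(2 * c) * ((δ + c * (t * t')) * (t * t')) + c ^ 2 * (t ^ 2 * t' ^ 2) + c ^ 2 / 2 * (t ^ 2 + t' ^ 2)
        - c ^ 2 * ((x + t' / 2) * (t' * (1 - t ^ 2)) - (y - t / 2) * (t * (1 - t' ^ 2))) := by
    linear_combination (-(2 * c) * t') * hL + (2 * c * t) * hU
  have hc2 : 0 ≤ c ^ 2 := sq_nonneg c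
  have q1 := mul_le_mul_of_nonneg_left p1.1 (by positivity : (0 : ℝ) ≤ 2 * c)
  have q2 := mul_le_mul_of_nonneg_left p2.1 hc2
  have q3 := mul_le_mul_of_nonneg_left p3.2 hc2
  have q4 := mul_nonneg hc2 (sq_nonneg (t ^ 2 - t' ^ 2))
  linarith

/-- (3b) interface lemma. -/
theorem interface_ineq (x y lam t t' : ℝ) (ht : t ∈ Set.Icc (-1 : ℝ) 1) (ht' : t' ∈ Set.Icc (-1 : ℝ) 1)
    (h0 : 0 ≤ lam) (h1 : lam ≤ 1) (hx : |x| ≤ 1 - lam) (hy : |y| ≤ lam)
    (hL : y = lam * t + cT / 2 * x * (1 - t ^ 2))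
    (hU : -x = (1 - lam) * t' + cT / 2 * y * (1 - t' ^ 2)) :
    2 * (lam - cT * x * t) ≤ Rsw t ∨ 2 * (1 - lam - cT * y * t') ≤ Rsw t' := by
  by_contra hcon
  obtain ⟨hA, hB⟩ := not_or.mp hcon
  rw [not_le] at hA hB
  unfold Rsw at hA hB
  have hc : (0 : ℝ) < cT := by unfold cT; norm_num
  have h0' := abs_nonneg x
  have h1' := abs_nonneg y
  refine sweep_interface_aux cT x y (2 * lam - 1) t t' hc (abs_le.mpr ⟨ht.1, ht.2⟩)
    (abs_le.mpr ⟨ht'.1, ht'.2⟩) (by linarith) (by linarith) ?_ ?_ ?_ ?_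
  · rw [hL]; ring
  · rw [hU]; ring
  · linarith
  · linarith

/-- (3c) every point of the tetrahedron (in coordinates) is in the lower sweep, or its image under
`σ⁻¹ : (x,y,lam) ↦ (y,-x,1-lam)` is. -/
theorem cover_coords (x y lam : ℝ) (h0 : 0 ≤ lam) (h1 : lam ≤ 1) (hx : |x| ≤ 1 - lam) (hy : |y| ≤ lam) :
    InLower x y lam ∨ InLower y (-x) (1 - lam) := by
  obtain ⟨t, ht, hL, hLle⟩ := sector_coords x y lam hy
  have hx' : |-x| ≤ 1 - lam := by rwa [abs_neg]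
  obtain ⟨t', ht', hU, hUle⟩ := sector_coords y (-x) (1 - lam) hx'
  rcases interface_ineq x y lam t t' ht ht' h0 h1 hx hy hL hU with h | h
  · left
    refine ⟨by linarith, t, ht, 2 * (lam - cT * x * t), ⟨by linarith, h⟩, ?_, by ring⟩
    rw [hL]; ring
  · right
    refine ⟨by linarith, t', ht', 2 * (1 - lam - cT * y * t'), ⟨by linarith, h⟩, ?_, by ring⟩
    rw [hU]; ring

end Crest.Agent.Tetra
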