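/-
TetraLib (row S0324–S0329): the explicit finite cover of the standard tetrahedron.
Owner: helper6 (taken over from helper4).  Blueprint §3 (3d)–(3f).
Only `exists_std_cover` is used downstream.  The proofs live in `Crest/Agent/DiscLib/`
(`AreaSum`: the area sum (3e); `Core`, `Cyl`: the explicit cylinders and membership (3d)).
-/
import Crest.Agent.TetraLib.Area
import Crest.Agent.TetraLib.Sweep
import Crest.Agent.DiscLib.Cyl

set_option autoImplicit false

open MeasureTheory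
open scoped ENNReal

namespace Crest.Agent.Tetra

/-- points of the standard tetrahedron satisfy the coordinate inequalities (`lam = z/√2`). -/
theorem Kstd_coords {P : E3} (hP : P ∈ Kstd) :
    0 ≤ P 2 / Real.sqrt 2 ∧ P 2 / Real.sqrt 2 ≤ 1 ∧ |P 0| ≤ 1 - P 2 / Real.sqrt 2 ∧
      |P 1| ≤ P 2 / Real.sqrt 2 := by
  have hs : 0 < Real.sqrt 2 := Real.sqrt_pos.mpr (by norm_num)
  have hconv : Convex ℝ {P : E3 | 0 ≤ P 2 / Real.sqrt 2 ∧ P 2 / Real.sqrt 2 ≤ 1 ∧
      |P 0| ≤ 1 - P 2 / Real.sqrt 2 ∧ |P 1| ≤ P 2 / Real.sqrt 2} := by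
    intro P hP Q hQ a b ha hb hab
    simp only [Set.mem_ofPred_eq, PiLp.add_apply, PiLp.smul_apply, smul_eq_mul] at hP hQ ⊢
    obtain ⟨p1, p2, p3, p4⟩ := hP
    obtain ⟨q1, q2, q3, q4⟩ := hQ
    have e : (a * P 2 + b * Q 2) / Real.sqrt 2
        = a * (P 2 / Real.sqrt 2) + b * (Q 2 / Real.sqrt 2) := by ring
    rw [e]
    rw [abs_le] at p3 p4 q3 q4 ⊢
    rw [abs_le]
    have a1 := mul_nonneg ha p1
    have a2 := mul_nonneg hb q1
    have a3 := mul_le_mul_of_nonneg_left p2 ha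
    have a4 := mul_le_mul_of_nonneg_left q2 hb
    have a5 := mul_le_mul_of_nonneg_left p3.1 ha
    have a6 := mul_le_mul_of_nonneg_left p3.2 ha
    have a7 := mul_le_mul_of_nonneg_left q3.1 hb
    have a8 := mul_le_mul_of_nonneg_left q3.2 hb
    have a9 := mul_le_mul_of_nonneg_left p4.1 ha
    have a10 := mul_le_mul_of_nonneg_left p4.2 ha
    have a11 := mul_le_mul_of_nonneg_left q4.1 hb
    have a12 := mul_le_mul_of_nonneg_left q4.2 hb
    refine ⟨by linarith, by linarith, ⟨by linarith, by linarith⟩, ⟨by linarith, by linarith⟩⟩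
  have hsub : ({!₂[1, 0, 0], !₂[-1, 0, 0], !₂[0, 1, Real.sqrt 2], !₂[0, -1, Real.sqrt 2]} : Set E3)
      ⊆ {P : E3 | 0 ≤ P 2 / Real.sqrt 2 ∧ P 2 / Real.sqrt 2 ≤ 1 ∧
        |P 0| ≤ 1 - P 2 / Real.sqrt 2 ∧ |P 1| ≤ P 2 / Real.sqrt 2} := by
    intro P hP
    simp only [Set.mem_insert_iff, Set.mem_singleton_iff] at hP
    rcases hP with rfl | rfl | rfl | rfl <;> simp
  exact convexHull_min hsub hconv hP

open Crest.Agent.Disc in
/-- The explicit cover: at most 15 999 999 triangular cylinders, total base area at most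
`√2 (1/2 - 6·10⁻¹⁰)`. -/
theorem exists_std_cover :
    ∃ (m : ℕ) (T : Fin m → TriCyl), m ≤ 15999999 ∧ Kstd ⊆ ⋃ i, (T i).carrier ∧
      ∑ i, (T i).area ≤ Real.sqrt 2 * (1 / 2 - 6 / 10 ^ 10) := by
  have hs : 0 < Real.sqrt 2 := Real.sqrt_pos.mpr (by norm_num)
  let TL : Fin NN → TriCyl := fun i =>
    TriCyl.ofOblique (dL i) (PL i) (QL i) (RL i) (dL_ne_zero i)
  let TU : Fin NN → TriCyl := fun i =>
    TriCyl.ofOblique (sigL (dL i)) (sig (PL i)) (sig (QL i)) (sig (RL i))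
      (sigL_ne_zero _ (dL_ne_zero i))
  refine ⟨NN + NN, Fin.addCases (motive := fun _ => TriCyl) TL TU, ?_, ?_, ?_⟩
  · unfold NN; norm_num
  · intro P hP
    obtain ⟨h0, h1, hx, hy⟩ := Kstd_coords hP
    have hPeq : P = !₂[P 0, P 1, Real.sqrt 2 * (P 2 / Real.sqrt 2)] := by
      ext j
      fin_cases j
      · simp
      · simp
      · simp
        field_simp
    have hlast : tpt (3999999 + 1) = 1 := by unfold tpt Δd; norm_num
    rw [Set.mem_iUnion]
    rcases cover_coords (P 0) (P 1) (P 2 / Real.sqrt 2) h0 h1 hx hy with hlow | hup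
    · obtain ⟨hx1, t, ht, ρ, hρ, e1, e2⟩ := hlow
      obtain ⟨i, hi, hi1, hi2⟩ := exists_tpt_piece 3999999 t (by rw [tpt_zero]; exact ht.1)
        (by rw [hlast]; exact ht.2)
      have hi' : i < NN := hi
      obtain ⟨α, β, γ, hα, hβ, hγ, hsum, e⟩ :=
        lower_mem i hi' (P 0) (P 1) (P 2 / Real.sqrt 2) t ρ hx1 hi1 hi2 hρ.1 hρ.2 e1 e2
      refine ⟨Fin.castAdd NN ⟨i, hi'⟩, ?_⟩
      rw [Fin.addCases_left]
      apply TriCyl.ofOblique_carrier
      exact ⟨α • PL i + β • QL i + γ • RL i, mem_convexHull_triple hα hβ hγ hsum, P 0,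
        hPeq.trans e⟩
    · obtain ⟨hy1, t, ht, ρ, hρ, e1, e2⟩ := hup
      obtain ⟨i, hi, hi1, hi2⟩ := exists_tpt_piece 3999999 t (by rw [tpt_zero]; exact ht.1)
        (by rw [hlast]; exact ht.2)
      have hi' : i < NN := hi
      obtain ⟨α, β, γ, hα, hβ, hγ, hsum, e⟩ :=
        upper_mem i hi' (P 0) (P 1) (P 2 / Real.sqrt 2) t ρ hy1 hi1 hi2 hρ.1 hρ.2 e1 e2
      refine ⟨Fin.natAdd NN ⟨i, hi'⟩, ?_⟩
      rw [Fin.addCases_right]
      apply TriCyl.ofOblique_carrier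
      exact ⟨α • sig (PL i) + β • sig (QL i) + γ • sig (RL i),
        mem_convexHull_triple hα hβ hγ hsum, P 1, hPeq.trans e⟩
  · rw [Fin.sum_univ_add]
    simp only [Fin.addCases_left, Fin.addCases_right]
    have hL : ∑ i : Fin NN, (TL i).area
        = Real.sqrt 2 / 8 * ∑ i ∈ Finset.range NN,
            Δd * (Hd i ^ 2 / Real.sqrt (1 + cT ^ 2 * Wd (cpt i))) := by
      rw [Finset.mul_sum, ← Fin.sum_univ_eq_sum_range
        (fun i => Real.sqrt 2 / 8 * (Δd * (Hd i ^ 2 / Real.sqrt (1 + cT ^ 2 * Wd (cpt i))))) NN]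
      exact Finset.sum_congr rfl (fun i _ => area_lower i)
    have hU : ∑ i : Fin NN, (TU i).area
        = Real.sqrt 2 / 8 * ∑ i ∈ Finset.range NN,
            Δd * (Hd i ^ 2 / Real.sqrt (1 + cT ^ 2 * Wd (cpt i))) := by
      rw [Finset.mul_sum, ← Fin.sum_univ_eq_sum_range
        (fun i => Real.sqrt 2 / 8 * (Δd * (Hd i ^ 2 / Real.sqrt (1 + cT ^ 2 * Wd (cpt i))))) NN]
      exact Finset.sum_congr rfl (fun i _ => area_upper i)
    rw [hL, hU]
    have hsum := area_sum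
    have h8 : 0 ≤ Real.sqrt 2 / 8 := by positivity
    have := mul_le_mul_of_nonneg_left hsum h8
    calc Real.sqrt 2 / 8 * ∑ i ∈ Finset.range NN,
            Δd * (Hd i ^ 2 / Real.sqrt (1 + cT ^ 2 * Wd (cpt i)))
          + Real.sqrt 2 / 8 * ∑ i ∈ Finset.range NN,
            Δd * (Hd i ^ 2 / Real.sqrt (1 + cT ^ 2 * Wd (cpt i)))
        ≤ Real.sqrt 2 / 8 * (2 * (1 - 12 / 10 ^ 10)) + Real.sqrt 2 / 8 * (2 * (1 - 12 / 10 ^ 10)) :=
          add_le_add this this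
      _ = Real.sqrt 2 * (1 / 2 - 6 / 10 ^ 10) := by ring

end Crest.Agent.Tetra
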