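/-
TetraLib (row S0324–S0329): orthogonal projections of the standard tetrahedron.
Owner: helper5.  Blueprint §2.  All four statements are proved (no `sorry` in this file); the
proofs live in `Crest/Agent/S0324Lib/Proj.lean` (which depends only on Mathlib and
`S0324Lib/Area.lean`), this file only translates to the `TetraLib` vocabulary.
-/
import Crest.Agent.TetraLib.Area
import Crest.Agent.S0324Lib.Proj

set_option autoImplicit false

open MeasureTheory
open scoped ENNReal

namespace Crest.Agent.Tetra

/-- area of the projection of a (possibly non-convex-position) quadruple: at least half the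
determinant of the two "diagonals" `A - B`, `C - D`.  (Two triangles sharing the edge `πA πB`.) -/
theorem muHE_quad_ge (A B C D u : E3) (hu : ‖u‖ = 1) :
    ENNReal.ofReal (|det3 (A - B) (C - D) u| / 2) ≤
      μHE[2] (convexHull ℝ ({projU u A, projU u B, projU u C, projU u D} : Set E3)) :=
  Crest.Agent.S0324Lib.area_proj_quadrilateral_ge A B C D u hu

/-- every orthogonal projection of the standard tetrahedron has area at least `√2`. -/
theorem proj_Kstd_ge (v : E3) (hv : ‖v‖ = 1) :
    ENNReal.ofReal (Real.sqrt 2) ≤ μHE[2] ((fun y : E3 => y - inner ℝ y v • v) '' Kstd) :=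
  Crest.Agent.S0324Lib.area_proj_tetra_ge v hv

/-- the projections have finite area. -/
theorem proj_Kstd_lt_top (v : E3) (hv : ‖v‖ = 1) :
    μHE[2] ((fun y : E3 => y - inner ℝ y v • v) '' Kstd) < ⊤ :=
  Crest.Agent.S0324Lib.area_proj_tetra_lt_top v hv

/-- the projection along the edge direction `(1,0,0)` has area exactly `√2`. -/
theorem proj_Kstd_eq :
    μHE[2] ((fun y : E3 => y - inner ℝ y (!₂[1, 0, 0] : E3) • (!₂[1, 0, 0] : E3)) '' Kstd) =
      ENNReal.ofReal (Real.sqrt 2) :=
  Crest.Agent.S0324Lib.area_proj_tetra_eq

end Crest.Agent.Tetra
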