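/-
TetraLib (row S0324–S0329): from triangular cylinders to parallelogram / open-base cylinders
(for S0327).  Owner: helper8.  Blueprint §4.
No sorry in this file (statements are those of the frozen spec).
-/
import Crest.Agent.TetraLib.Area
import Crest.Agent.TetraLib.Discrete

set_option autoImplicit false

open MeasureTheory
open scoped ENNReal

namespace Crest.Agent.Tetra

/-- staircase: a triangle `conv{p,q,r}` is covered by the `M` parallelograms
`p + (k/M)(q-p) + [0,1] (q-p)/M + [0,1] (1-k/M)(r-p)`, `k < M`. -/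
theorem tri_subset_staircase (p q r : E3) (M : ℕ) (hM : 0 < M) :
    convexHull ℝ ({p, q, r} : Set E3) ⊆
      ⋃ k : Fin M, par (p + ((k : ℝ) / M) • (q - p)) ((1 / (M : ℝ)) • (q - p))
        ((1 - (k : ℝ) / M) • (r - p)) := by
  intro x hx
  obtain ⟨α, β, γ, hα, hβ, hγ, hsum, rfl⟩ := exists_of_mem_convexHull_triple hx
  have hMpos : (0 : ℝ) < M := by exact_mod_cast hM
  have hMne : (M : ℝ) ≠ 0 := hMpos.ne'
  have hβ1 : β ≤ 1 := by linarith
  have hβM : 0 ≤ β * M := by positivity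
  -- the index
  set k₀ : ℕ := min ⌊β * M⌋₊ (M - 1) with hk₀
  have hk₀M : k₀ < M := lt_of_le_of_lt (min_le_right _ _) (Nat.sub_lt hM Nat.one_pos)
  have hk₀le : (k₀ : ℝ) ≤ β * M :=
    le_trans (Nat.cast_le.mpr (min_le_left _ _)) (Nat.floor_le hβM)
  have hk₀ge : β * M ≤ (k₀ : ℝ) + 1 := by
    rcases le_total ⌊β * M⌋₊ (M - 1) with h | h
    · rw [hk₀, min_eq_left h]
      exact (Nat.lt_floor_add_one _).le
    · rw [hk₀, min_eq_right h]
      have : ((M - 1 : ℕ) : ℝ) = (M : ℝ) - 1 := by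
        rw [Nat.cast_sub hM]; simp
      rw [this]
      nlinarith
  have hk₀M' : (k₀ : ℝ) + 1 ≤ M := by exact_mod_cast hk₀M
  set κ : ℝ := (k₀ : ℝ) / M with hκ
  have hκβ : κ ≤ β := by rw [hκ, div_le_iff₀ hMpos]; exact hk₀le
  have hκ1 : κ < 1 := by rw [hκ, div_lt_one hMpos]; linarith
  have h1κ : 0 < 1 - κ := by linarith
  rw [Set.mem_iUnion]
  refine ⟨⟨k₀, hk₀M⟩, (β - κ) * M, ⟨?_, ?_⟩, γ / (1 - κ), ⟨?_, ?_⟩, ?_⟩
  · exact mul_nonneg (by linarith) hMpos.le
  · have : κ * M = k₀ := by rw [hκ]; field_simp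
    nlinarith
  · exact div_nonneg hγ h1κ.le
  · rw [div_le_one h1κ]; linarith
  · have e1 : ((β - κ) * M) • ((1 / (M : ℝ)) • (q - p)) = (β - κ) • (q - p) := by
      rw [smul_smul]; congr 1; field_simp
    have e2 : (γ / (1 - κ)) • ((1 - κ) • (r - p)) = γ • (r - p) := by
      rw [smul_smul]; congr 1; field_simp
    show α • p + β • q + γ • r = p + κ • (q - p) + ((β - κ) * M) • ((1 / (M : ℝ)) • (q - p)) +
      (γ / (1 - κ)) • ((1 - κ) • (r - p))
    rw [e1, e2]
    have hα' : α = 1 - β - γ := by linarith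
    subst hα'
    module

private theorem conv_gram_smul (α β : ℝ) (a b : E3) :
    gram (α • a) (β • b) = (α * β) ^ 2 * gram a b := by
  unfold gram
  rw [norm_smul, norm_smul, real_inner_smul_left, real_inner_smul_right, Real.norm_eq_abs,
    Real.norm_eq_abs, mul_pow, mul_pow, sq_abs, sq_abs]
  ring

private theorem conv_sum_range_id (M : ℕ) :
    ∑ k ∈ Finset.range M, (k : ℝ) = (M : ℝ) * ((M : ℝ) - 1) / 2 := by
  induction M with
  | zero => simp
  | succ n ih => rw [Finset.sum_range_succ, ih]; push_cast; ring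

/-- total area of the staircase: `(1 + 1/M)` times the area of the triangle. -/
theorem staircase_area (p q r : E3) (M : ℕ) (hM : 0 < M) :
    ∑ k : Fin M, (μHE[2] (par (p + ((k : ℝ) / M) • (q - p)) ((1 / (M : ℝ)) • (q - p))
        ((1 - (k : ℝ) / M) • (r - p)))).toReal =
      (1 + 1 / (M : ℝ)) * (μHE[2] (convexHull ℝ ({p, q, r} : Set E3))).toReal := by
  have hMpos : (0 : ℝ) < M := by exact_mod_cast hM
  have hMne : (M : ℝ) ≠ 0 := hMpos.ne'
  have hg : 0 ≤ gram (q - p) (r - p) := gram_nonneg _ _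
  have hterm : ∀ k : Fin M, (μHE[2] (par (p + ((k : ℝ) / M) • (q - p)) ((1 / (M : ℝ)) • (q - p))
        ((1 - (k : ℝ) / M) • (r - p)))).toReal =
      (1 / (M : ℝ)) * (1 - (k : ℝ) / M) * Real.sqrt (gram (q - p) (r - p)) := by
    intro k
    have hk : (k : ℝ) + 1 ≤ M := by exact_mod_cast k.isLt
    have hk1 : 0 ≤ 1 - (k : ℝ) / M := by
      rw [sub_nonneg, div_le_one hMpos]; linarith
    rw [muHE_par, ENNReal.toReal_ofReal (Real.sqrt_nonneg _), conv_gram_smul,
      Real.sqrt_mul (sq_nonneg _), Real.sqrt_sq (mul_nonneg (by positivity) hk1)]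
  rw [Finset.sum_congr rfl (fun k _ => hterm k), muHE_tri,
    ENNReal.toReal_ofReal (by positivity), ← Finset.sum_mul]
  have hsum : ∑ k : Fin M, (1 / (M : ℝ)) * (1 - (k : ℝ) / M) = (1 + 1 / (M : ℝ)) / 2 := by
    rw [Fin.sum_univ_eq_sum_range (fun k : ℕ => (1 / (M : ℝ)) * (1 - (k : ℝ) / M)) M]
    have : ∀ k ∈ Finset.range M, (1 / (M : ℝ)) * (1 - (k : ℝ) / M) =
        1 / (M : ℝ) - (k : ℝ) * (1 / (M : ℝ) ^ 2) := by
      intro k _; field_simp
    rw [Finset.sum_congr rfl this, Finset.sum_sub_distrib, ← Finset.sum_mul, conv_sum_range_id]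
    simp only [Finset.sum_const, Finset.card_range, nsmul_eq_mul]
    field_simp
    ring
  rw [hsum]
  ring

private theorem conv_A0_le_one : Real.sqrt 2 * (1 / 2 - 6 / 10 ^ 10) ≤ 1 := by
  have h2 : Real.sqrt 2 ≤ 2 := by
    rw [show (2 : ℝ) = Real.sqrt (2 ^ 2) by rw [Real.sqrt_sq (by norm_num)]]
    exact Real.sqrt_le_sqrt (by norm_num)
  have h0 : 0 ≤ Real.sqrt 2 := Real.sqrt_nonneg _
  nlinarith

/-- parallelogram-base cover of the standard tetrahedron, area within `η` of the triangular one. -/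
theorem exists_std_par_cover (η : ℝ) (hη : 0 < η) :
    ∃ (k : ℕ) (u c a b : Fin k → E3), (∀ i, ‖u i‖ = 1) ∧
      (∀ i, inner ℝ (c i) (u i) = 0 ∧ inner ℝ (a i) (u i) = 0 ∧ inner ℝ (b i) (u i) = 0) ∧
      Kstd ⊆ ⋃ i, parCyl (u i) (c i) (a i) (b i) ∧
      ∑ i, (μHE[2] (par (c i) (a i) (b i))).toReal ≤
        Real.sqrt 2 * (1 / 2 - 6 / 10 ^ 10) + η := by
  obtain ⟨m, T, -, hcov, hsum⟩ := exists_std_cover
  set M : ℕ := ⌈1 / η⌉₊ + 1 with hM
  have hMpos : 0 < M := Nat.succ_pos _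
  have hMpos' : (0 : ℝ) < M := by exact_mod_cast hMpos
  have hMη : 1 / (M : ℝ) ≤ η := by
    rw [div_le_iff₀ hMpos']
    have h1 : 1 / η ≤ (M : ℝ) := by
      rw [hM]; push_cast
      exact (Nat.le_ceil _).trans (by linarith)
    rw [div_le_iff₀ hη] at h1
    linarith
  -- the parallelogram data, indexed by pairs
  let C : Fin m × Fin M → E3 := fun ij =>
    (T ij.1).p + ((ij.2 : ℝ) / M) • ((T ij.1).q - (T ij.1).p)
  let A : Fin m × Fin M → E3 := fun ij => (1 / (M : ℝ)) • ((T ij.1).q - (T ij.1).p)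
  let Bv : Fin m × Fin M → E3 := fun ij => (1 - (ij.2 : ℝ) / M) • ((T ij.1).r - (T ij.1).p)
  let f : Fin (m * M) → Fin m × Fin M := finProdFinEquiv.symm
  refine ⟨m * M, fun idx => (T (f idx).1).u, fun idx => C (f idx), fun idx => A (f idx),
    fun idx => Bv (f idx), fun idx => (T (f idx).1).hu, ?_, ?_, ?_⟩
  · intro idx
    have hp := (T (f idx).1).hp
    have hq := (T (f idx).1).hq
    have hr := (T (f idx).1).hr
    refine ⟨?_, ?_, ?_⟩
    · show inner ℝ ((T (f idx).1).p + (((f idx).2 : ℝ) / M) • ((T (f idx).1).q - (T (f idx).1).p))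
        (T (f idx).1).u = 0
      rw [inner_add_left, real_inner_smul_left, inner_sub_left, hp, hq]; ring
    · show inner ℝ ((1 / (M : ℝ)) • ((T (f idx).1).q - (T (f idx).1).p)) (T (f idx).1).u = 0
      rw [real_inner_smul_left, inner_sub_left, hp, hq]; ring
    · show inner ℝ ((1 - ((f idx).2 : ℝ) / M) • ((T (f idx).1).r - (T (f idx).1).p))
        (T (f idx).1).u = 0
      rw [real_inner_smul_left, inner_sub_left, hp, hr]; ring
  · intro x hx
    obtain ⟨i, hi⟩ := Set.mem_iUnion.mp (hcov hx)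
    obtain ⟨y, hy, t, rfl⟩ := hi
    obtain ⟨j, hj⟩ := Set.mem_iUnion.mp (tri_subset_staircase (T i).p (T i).q (T i).r M hMpos hy)
    obtain ⟨s, hs, t', ht', rfl⟩ := hj
    refine Set.mem_iUnion.mpr ⟨finProdFinEquiv (i, j), ?_⟩
    have hf : f (finProdFinEquiv (i, j)) = (i, j) := Equiv.symm_apply_apply _ _
    show _ ∈ parCyl (T (f (finProdFinEquiv (i, j))).1).u (C (f (finProdFinEquiv (i, j))))
      (A (f (finProdFinEquiv (i, j)))) (Bv (f (finProdFinEquiv (i, j))))
    rw [hf]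
    exact ⟨s, hs, t', ht', t, rfl⟩
  · have hS0 : 0 ≤ ∑ i, (T i).area :=
      Finset.sum_nonneg (fun i _ => ENNReal.toReal_nonneg)
    have hS1 : ∑ i, (T i).area ≤ 1 := hsum.trans conv_A0_le_one
    have hre : ∑ idx : Fin (m * M), (μHE[2] (par (C (f idx)) (A (f idx)) (Bv (f idx)))).toReal =
        (1 + 1 / (M : ℝ)) * ∑ i, (T i).area := by
      rw [Equiv.sum_comp finProdFinEquiv.symm
        (fun ij : Fin m × Fin M => (μHE[2] (par (C ij) (A ij) (Bv ij))).toReal),
        Fintype.sum_prod_type, Finset.mul_sum]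
      refine Finset.sum_congr rfl (fun i _ => ?_)
      exact staircase_area (T i).p (T i).q (T i).r M hMpos
    show ∑ idx : Fin (m * M), (μHE[2] (par (C (f idx)) (A (f idx)) (Bv (f idx)))).toReal ≤ _
    rw [hre]
    have h1M : 0 ≤ 1 / (M : ℝ) := by positivity
    nlinarith

/-- open-base cover of the standard tetrahedron, area within `η` of the triangular one. -/
theorem exists_std_open_cover (η : ℝ) (hη : 0 < η) :
    ∃ (k : ℕ) (u : Fin k → E3) (B : Fin k → Set E3), (∀ i, ‖u i‖ = 1) ∧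
      (∀ i, Bornology.IsBounded (B i) ∧
        ∃ O : Set E3, IsOpen O ∧ B i = O ∩ {x | inner ℝ x (u i) = 0}) ∧
      Kstd ⊆ ⋃ i, setCyl (u i) (B i) ∧
      ∑ i, (μHE[2] (B i)).toReal ≤ Real.sqrt 2 * (1 / 2 - 6 / 10 ^ 10) + η := by
  obtain ⟨m, T, -, hcov, hsum⟩ := exists_std_cover
  have hm1 : (0 : ℝ) < (m : ℝ) + 1 := by positivity
  have hη' : 0 < η / ((m : ℝ) + 1) := div_pos hη hm1
  have key : ∀ i : Fin m, ∃ B : Set E3,
      convexHull ℝ ({(T i).p, (T i).q, (T i).r} : Set E3) ⊆ B ∧ Bornology.IsBounded B ∧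
      (∃ O : Set E3, IsOpen O ∧ B = O ∩ {x | inner ℝ x (T i).u = 0}) ∧
      (μHE[2] B).toReal ≤ (T i).area + η / ((m : ℝ) + 1) := by
    intro i
    have hcomp : IsCompact (convexHull ℝ ({(T i).p, (T i).q, (T i).r} : Set E3)) :=
      Set.Finite.isCompact_convexHull ℝ (Set.toFinite _)
    refine exists_open_base (T i).u (T i).hu _ hcomp ?_ _ hη'
    intro x hx
    obtain ⟨α, β, γ, -, -, -, -, rfl⟩ := exists_of_mem_convexHull_triple hx
    rw [inner_add_left, inner_add_left, real_inner_smul_left, real_inner_smul_left,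
      real_inner_smul_left, (T i).hp, (T i).hq, (T i).hr]
    ring
  choose B hB1 hB2 hB3 hB4 using key
  refine ⟨m, fun i => (T i).u, B, fun i => (T i).hu, fun i => ⟨hB2 i, hB3 i⟩, ?_, ?_⟩
  · intro x hx
    obtain ⟨i, hi⟩ := Set.mem_iUnion.mp (hcov hx)
    obtain ⟨y, hy, t, rfl⟩ := hi
    exact Set.mem_iUnion.mpr ⟨i, y, hB1 i hy, t, rfl⟩
  · calc ∑ i, (μHE[2] (B i)).toReal ≤ ∑ i, ((T i).area + η / ((m : ℝ) + 1)) :=
          Finset.sum_le_sum (fun i _ => hB4 i)
      _ = ∑ i, (T i).area + (m : ℝ) * (η / ((m : ℝ) + 1)) := by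
          rw [Finset.sum_add_distrib]; simp
      _ ≤ Real.sqrt 2 * (1 / 2 - 6 / 10 ^ 10) + η := by
          have : (m : ℝ) * (η / ((m : ℝ) + 1)) ≤ η := by
            rw [← mul_div_assoc, div_le_iff₀ hm1]
            nlinarith
          linarith

end Crest.Agent.Tetra
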