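/-
TetraLib (row S0324–S0329): every regular tetrahedron is a similar image of the standard one, and
transport of covers / areas / projections under similarities (for S0327).
Owner: helper8.  Blueprint §4.  No sorry in this file (statements are those of the frozen spec).
-/
import Crest.Agent.TetraLib.Area

set_option autoImplicit false

open MeasureTheory
open scoped ENNReal Pointwise

namespace Crest.Agent.Tetra

private theorem sim_range_fin4 (w : Fin 4 → E3) : Set.range w = {w 0, w 1, w 2, w 3} := by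
  ext x
  simp only [Set.mem_range, Set.mem_insert_iff, Set.mem_singleton_iff]
  constructor
  · rintro ⟨i, rfl⟩
    fin_cases i <;> simp
  · rintro (h | h | h | h)
    exacts [⟨0, h.symm⟩, ⟨1, h.symm⟩, ⟨2, h.symm⟩, ⟨3, h.symm⟩]

private theorem sim_dist_sq (w : Fin 4 → E3) (ℓ : ℝ)
    (hw : ∀ i j, i ≠ j → dist (w i) (w j) = ℓ) (i j : Fin 4) (hij : i ≠ j) :
    inner ℝ (w i) (w i) - 2 * inner ℝ (w i) (w j) + inner ℝ (w j) (w j) = ℓ ^ 2 := by
  have h := hw i j hij
  rw [dist_eq_norm] at h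
  have h2 : ‖w i - w j‖ ^ 2 = ℓ ^ 2 := by rw [h]
  rw [← real_inner_self_eq_norm_sq] at h2
  rw [← h2]
  simp only [inner_sub_left, inner_sub_right, real_inner_comm (w i) (w j)]
  ring

/-- four points at pairwise distance `ℓ` are the image of the standard vertices under
`x ↦ q + (ℓ/2) • U x` with `U` a linear isometry. -/
theorem exists_similarity (w : Fin 4 → E3) (ℓ : ℝ) (hℓ : 0 < ℓ)
    (hw : ∀ i j, i ≠ j → dist (w i) (w j) = ℓ) :
    ∃ (U : E3 ≃ₗᵢ[ℝ] E3) (q : E3),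
      convexHull ℝ (Set.range w) = (fun x => q + (ℓ / 2) • U x) '' Kstd := by
  have h01 := sim_dist_sq w ℓ hw 0 1 (by decide)
  have h02 := sim_dist_sq w ℓ hw 0 2 (by decide)
  have h03 := sim_dist_sq w ℓ hw 0 3 (by decide)
  have h12 := sim_dist_sq w ℓ hw 1 2 (by decide)
  have h13 := sim_dist_sq w ℓ hw 1 3 (by decide)
  have h23 := sim_dist_sq w ℓ hw 2 3 (by decide)
  have c10 := real_inner_comm (w 0) (w 1)
  have c20 := real_inner_comm (w 0) (w 2)
  have c30 := real_inner_comm (w 0) (w 3)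
  have c21 := real_inner_comm (w 1) (w 2)
  have c31 := real_inner_comm (w 1) (w 3)
  have c32 := real_inner_comm (w 2) (w 3)
  set d1 : E3 := w 0 - w 1 with hd1
  set d2 : E3 := w 2 - w 3 with hd2
  set d3 : E3 := w 2 + w 3 - w 0 - w 1 with hd3
  have i11 : inner ℝ d1 d1 = ℓ ^ 2 := by
    simp only [hd1, inner_sub_left, inner_sub_right]; linarith
  have i22 : inner ℝ d2 d2 = ℓ ^ 2 := by
    simp only [hd2, inner_sub_left, inner_sub_right]; linarith
  have i33 : inner ℝ d3 d3 = 2 * ℓ ^ 2 := by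
    simp only [hd3, inner_sub_left, inner_sub_right, inner_add_left, inner_add_right]; linarith
  have i12 : inner ℝ d1 d2 = 0 := by
    simp only [hd1, hd2, inner_sub_left, inner_sub_right]; linarith
  have i13 : inner ℝ d1 d3 = 0 := by
    simp only [hd1, hd3, inner_sub_left, inner_sub_right, inner_add_left, inner_add_right]; linarith
  have i23 : inner ℝ d2 d3 = 0 := by
    simp only [hd2, hd3, inner_sub_left, inner_sub_right, inner_add_left, inner_add_right]; linarith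
  have i21 : inner ℝ d2 d1 = 0 := by rw [real_inner_comm]; exact i12
  have i31 : inner ℝ d3 d1 = 0 := by rw [real_inner_comm]; exact i13
  have i32 : inner ℝ d3 d2 = 0 := by rw [real_inner_comm]; exact i23
  have hs2 : (0 : ℝ) < Real.sqrt 2 := Real.sqrt_pos.mpr (by norm_num)
  have hs2sq : Real.sqrt 2 * Real.sqrt 2 = 2 := Real.mul_self_sqrt (by norm_num)
  have hℓ0 : ℓ ≠ 0 := hℓ.ne'
  let e : Fin 3 → E3 := ![ℓ⁻¹ • d1, ℓ⁻¹ • d2, (Real.sqrt 2)⁻¹ • ℓ⁻¹ • d3]
  have e0 : e 0 = ℓ⁻¹ • d1 := rfl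
  have e1 : e 1 = ℓ⁻¹ • d2 := rfl
  have e2 : e 2 = (Real.sqrt 2)⁻¹ • ℓ⁻¹ • d3 := rfl
  have hs2inv : (Real.sqrt 2)⁻¹ * (Real.sqrt 2)⁻¹ = 1 / 2 := by
    rw [← mul_inv, hs2sq]; norm_num
  have g00 : inner ℝ (e 0) (e 0) = 1 := by
    rw [e0, real_inner_smul_left, real_inner_smul_right, i11]; field_simp
  have g11 : inner ℝ (e 1) (e 1) = 1 := by
    rw [e1, real_inner_smul_left, real_inner_smul_right, i22]; field_simp
  have g22 : inner ℝ (e 2) (e 2) = 1 := by
    rw [e2, real_inner_smul_left, real_inner_smul_right, real_inner_smul_left,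
      real_inner_smul_right, i33]
    have : (Real.sqrt 2)⁻¹ * ((Real.sqrt 2)⁻¹ * (ℓ⁻¹ * (ℓ⁻¹ * (2 * ℓ ^ 2)))) =
        ((Real.sqrt 2)⁻¹ * (Real.sqrt 2)⁻¹) * (ℓ⁻¹ * (ℓ⁻¹ * (2 * ℓ ^ 2))) := by ring
    rw [this, hs2inv]; field_simp
  have g01 : inner ℝ (e 0) (e 1) = 0 := by
    rw [e0, e1, real_inner_smul_left, real_inner_smul_right, i12]; simp
  have g02 : inner ℝ (e 0) (e 2) = 0 := by
    rw [e0, e2, real_inner_smul_left, real_inner_smul_right, real_inner_smul_right, i13]; simp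
  have g12 : inner ℝ (e 1) (e 2) = 0 := by
    rw [e1, e2, real_inner_smul_left, real_inner_smul_right, real_inner_smul_right, i23]; simp
  have g10 : inner ℝ (e 1) (e 0) = 0 := by rw [real_inner_comm]; exact g01
  have g20 : inner ℝ (e 2) (e 0) = 0 := by rw [real_inner_comm]; exact g02
  have g21 : inner ℝ (e 2) (e 1) = 0 := by rw [real_inner_comm]; exact g12
  have hon : Orthonormal ℝ e := by
    rw [orthonormal_iff_ite]
    intro i j
    fin_cases i <;> fin_cases j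
    · rw [if_pos rfl]; exact g00
    · rw [if_neg (by decide)]; exact g01
    · rw [if_neg (by decide)]; exact g02
    · rw [if_neg (by decide)]; exact g10
    · rw [if_pos rfl]; exact g11
    · rw [if_neg (by decide)]; exact g12
    · rw [if_neg (by decide)]; exact g20
    · rw [if_neg (by decide)]; exact g21
    · rw [if_pos rfl]; exact g22
  have hsp : ⊤ ≤ Submodule.span ℝ (Set.range e) := by
    rw [hon.linearIndependent.span_eq_top_of_card_eq_finrank' (by simp)]
  let bas : OrthonormalBasis (Fin 3) ℝ E3 := OrthonormalBasis.mk hon hsp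
  have hbas : ∀ i, bas i = e i := fun i => by simp [bas]
  let U : E3 ≃ₗᵢ[ℝ] E3 := bas.repr.symm
  have hU : ∀ x : E3, U x = x 0 • e 0 + x 1 • e 1 + x 2 • e 2 := by
    intro x
    have := bas.sum_repr_symm x
    rw [Fin.sum_univ_three] at this
    simp only [hbas] at this
    exact this.symm
  refine ⟨U, (1 / 2 : ℝ) • (w 0 + w 1), ?_⟩
  set q : E3 := (1 / 2 : ℝ) • (w 0 + w 1) with hq
  have he0 : (ℓ / 2) • e 0 = (1 / 2 : ℝ) • d1 := by
    rw [e0, smul_smul]; congr 1; field_simp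
  have he1 : (ℓ / 2) • e 1 = (1 / 2 : ℝ) • d2 := by
    rw [e1, smul_smul]; congr 1; field_simp
  have he2 : (ℓ / 2) • (Real.sqrt 2 • e 2) = (1 / 2 : ℝ) • d3 := by
    rw [e2, smul_smul, smul_smul, smul_smul]; congr 1; field_simp
  let F : E3 →ᵃ[ℝ] E3 :=
    ((ℓ / 2) • (U.toLinearEquiv : E3 →ₗ[ℝ] E3)).toAffineMap + AffineMap.const ℝ E3 q
  have hF : ∀ x, F x = q + (ℓ / 2) • U x := by
    intro x; simp [F, add_comm]
  have hFfun : (fun x => q + (ℓ / 2) • U x) = F := by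
    funext x; exact (hF x).symm
  have hs2ne : Real.sqrt 2 ≠ 0 := hs2.ne'
  have F0 : F !₂[1, 0, 0] = w 0 := by
    rw [hF, hU]
    have : (ℓ / 2) • ((!₂[1, 0, 0] : E3) 0 • e 0 + (!₂[1, 0, 0] : E3) 1 • e 1 +
        (!₂[1, 0, 0] : E3) 2 • e 2) = (ℓ / 2) • e 0 := by simp
    rw [this, he0, hq, hd1]; module
  have F1 : F !₂[-1, 0, 0] = w 1 := by
    rw [hF, hU]
    have : (ℓ / 2) • ((!₂[-1, 0, 0] : E3) 0 • e 0 + (!₂[-1, 0, 0] : E3) 1 • e 1 +
        (!₂[-1, 0, 0] : E3) 2 • e 2) = - ((ℓ / 2) • e 0) := by simp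
    rw [this, he0, hq, hd1]; module
  have F2 : F !₂[0, 1, Real.sqrt 2] = w 2 := by
    rw [hF, hU]
    have : (ℓ / 2) • ((!₂[0, 1, Real.sqrt 2] : E3) 0 • e 0 + (!₂[0, 1, Real.sqrt 2] : E3) 1 • e 1 +
        (!₂[0, 1, Real.sqrt 2] : E3) 2 • e 2) = (ℓ / 2) • e 1 + (ℓ / 2) • (Real.sqrt 2 • e 2) := by
      simp
    rw [this, he1, he2, hq, hd2, hd3]; module
  have F3 : F !₂[0, -1, Real.sqrt 2] = w 3 := by
    rw [hF, hU]
    have : (ℓ / 2) • ((!₂[0, -1, Real.sqrt 2] : E3) 0 • e 0 + (!₂[0, -1, Real.sqrt 2] : E3) 1 • e 1 +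
        (!₂[0, -1, Real.sqrt 2] : E3) 2 • e 2) = - ((ℓ / 2) • e 1) + (ℓ / 2) • (Real.sqrt 2 • e 2) := by
      simp
    rw [this, he1, he2, hq, hd2, hd3]; module
  rw [hFfun, Kstd, AffineMap.image_convexHull, sim_range_fin4]
  simp only [Set.image_insert_eq, Set.image_singleton, F0, F1, F2, F3]

/-- `μHE[2]` scales by `s²` under `x ↦ q + s • U x`. -/
theorem muHE_image_similarity (U : E3 ≃ₗᵢ[ℝ] E3) (q : E3) (s : ℝ) (hs : 0 < s) (A : Set E3) :
    μHE[2] ((fun x => q + s • U x) '' A) = ENNReal.ofReal (s ^ 2) * μHE[2] A := by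
  have h1 : (fun x => q + s • U x) '' A = (fun y => q + y) '' (s • (U '' A)) := by
    ext z
    simp only [Set.mem_image, Set.mem_smul_set]
    constructor
    · rintro ⟨x, hx, rfl⟩
      exact ⟨s • U x, ⟨U x, ⟨x, hx, rfl⟩, rfl⟩, rfl⟩
    · rintro ⟨y, ⟨y', ⟨x, hx, rfl⟩, rfl⟩, rfl⟩
      exact ⟨x, hx, rfl⟩
  rw [h1, Isometry.euclideanHausdorffMeasure_image (isometry_add_left q),
    Measure.euclideanHausdorffMeasure_smul₀ 2 hs.ne',
    Isometry.euclideanHausdorffMeasure_image U.isometry]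
  rw [ENNReal.smul_def, smul_eq_mul]
  congr 1
  rw [ENNReal.ofReal_pow hs.le]
  simp [Real.enorm_eq_ofReal hs.le, ← enorm_eq_nnnorm]

/-- projections of a similar image. -/
theorem proj_image_similarity (U : E3 ≃ₗᵢ[ℝ] E3) (q : E3) (s : ℝ) (hs : 0 < s) (v : E3)
    (hv : ‖v‖ = 1) (K : Set E3) :
    μHE[2] ((fun y : E3 => y - inner ℝ y v • v) '' ((fun x => q + s • U x) '' K)) =
      ENNReal.ofReal (s ^ 2) *
        μHE[2] ((fun y : E3 => y - inner ℝ y (U.symm v) • U.symm v) '' K) := by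
  have key : (fun y : E3 => y - inner ℝ y v • v) '' ((fun x => q + s • U x) '' K) =
      (fun x => (q - inner ℝ q v • v) + s • U x) ''
        ((fun y : E3 => y - inner ℝ y (U.symm v) • U.symm v) '' K) := by
    rw [Set.image_image, Set.image_image]
    apply Set.image_congr
    intro x _
    have h : inner ℝ (U x) v = inner ℝ x (U.symm v) := by
      rw [← U.inner_map_map x (U.symm v), U.apply_symm_apply]
    simp only [map_sub, map_smul, U.apply_symm_apply, inner_add_left, real_inner_smul_left, h]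
    module
  rw [key, muHE_image_similarity U _ s hs]

/-- image of a parallelogram cylinder under a similarity is a parallelogram cylinder with
perpendicular base: direction `U u`, base corner `projU (U u) (q + s • U c)`, sides `s • U a`, `s • U b`. -/
theorem parCyl_image_similarity (U : E3 ≃ₗᵢ[ℝ] E3) (q : E3) (s : ℝ) (hs : 0 < s) (u c a b : E3)
    (hu : ‖u‖ = 1) :
    (fun x => q + s • U x) '' parCyl u c a b =
      parCyl (U u) (projU (U u) (q + s • U c)) (s • U a) (s • U b) := by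
  ext z
  simp only [Set.mem_image, parCyl, Set.mem_setOf_eq, projU]
  constructor
  · rintro ⟨x, ⟨σ, hσ, t, ht, τ, rfl⟩, rfl⟩
    refine ⟨σ, hσ, t, ht, s * τ + inner ℝ (q + s • U c) (U u), ?_⟩
    simp only [map_add, map_smul]
    module
  · rintro ⟨σ, hσ, t, ht, τ, rfl⟩
    obtain ⟨ρ, hρ⟩ : ∃ ρ, τ = s * ρ + inner ℝ (q + s • U c) (U u) :=
      ⟨(τ - inner ℝ (q + s • U c) (U u)) / s, by field_simp; ring⟩
    subst hρ
    refine ⟨c + σ • a + t • b + ρ • u, ⟨σ, hσ, t, ht, ρ, rfl⟩, ?_⟩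
    simp only [map_add, map_smul]
    module

/-- image of an open-base cylinder under a similarity: base `(fun y => projU (U u) q + s • U y) '' B`. -/
theorem setCyl_image_similarity (U : E3 ≃ₗᵢ[ℝ] E3) (q : E3) (s : ℝ) (hs : 0 < s) (u : E3)
    (hu : ‖u‖ = 1) (B : Set E3) (hB : ∀ y ∈ B, inner ℝ y u = 0) :
    (fun x => q + s • U x) '' setCyl u B =
      setCyl (U u) ((fun y => projU (U u) q + s • U y) '' B) := by
  ext z
  simp only [Set.mem_image, setCyl, Set.mem_setOf_eq, projU]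
  constructor
  · rintro ⟨x, ⟨y, hy, τ, rfl⟩, rfl⟩
    refine ⟨_, ⟨y, hy, rfl⟩, s * τ + inner ℝ q (U u), ?_⟩
    simp only [map_add, map_smul]
    module
  · rintro ⟨_, ⟨y, hy, rfl⟩, τ, rfl⟩
    obtain ⟨ρ, hρ⟩ : ∃ ρ, τ = s * ρ + inner ℝ q (U u) :=
      ⟨(τ - inner ℝ q (U u)) / s, by field_simp; ring⟩
    subst hρ
    refine ⟨y + ρ • u, ⟨y, hy, ρ, rfl⟩, ?_⟩
    simp only [map_add, map_smul]
    module

end Crest.Agent.Tetra
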