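/-
TetraLib (row S0324–S0329): the symmetry σ(x,y,z) = (-y, x, √2 - z) of the standard tetrahedron and
transport of oblique triangular cylinders under it; appending two families of cylinders.
Owner: helper4.
-/
import Crest.Agent.TetraLib.Area

set_option autoImplicit false

open MeasureTheory
open scoped ENNReal

namespace Crest.Agent.Tetra

/-- linear part of the symmetry: `(x,y,z) ↦ (-y, x, -z)`. -/
noncomputable def sigmaLin (v : E3) : E3 := !₂[-(v 1), v 0, -(v 2)]

/-- the symmetry `σ(x,y,z) = (-y, x, √2 - z)` of the standard tetrahedron. -/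
noncomputable def sigma (P : E3) : E3 := !₂[-(P 1), P 0, Real.sqrt 2 - P 2]

@[simp] theorem sigmaLin_apply0 (v : E3) : sigmaLin v 0 = -(v 1) := rfl
@[simp] theorem sigmaLin_apply1 (v : E3) : sigmaLin v 1 = v 0 := rfl
@[simp] theorem sigmaLin_apply2 (v : E3) : sigmaLin v 2 = -(v 2) := rfl
@[simp] theorem sigma_apply0 (P : E3) : sigma P 0 = -(P 1) := rfl
@[simp] theorem sigma_apply1 (P : E3) : sigma P 1 = P 0 := rfl
@[simp] theorem sigma_apply2 (P : E3) : sigma P 2 = Real.sqrt 2 - P 2 := rfl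

theorem sigma_comb {α β γ : ℝ} (h : α + β + γ = 1) (P Q R : E3) :
    sigma (α • P + β • Q + γ • R) = α • sigma P + β • sigma Q + γ • sigma R := by
  ext i
  fin_cases i
  · simp; ring
  · simp
  · simp
    linear_combination (-(Real.sqrt 2)) * h

theorem sigma_add_smul (b d : E3) (s : ℝ) : sigma (b + s • d) = sigma b + s • sigmaLin d := by
  ext i
  fin_cases i
  · simp; ring
  · simp
  · simp; ring

theorem sigma_sub (P Q : E3) : sigma Q - sigma P = sigmaLin (Q - P) := by
  ext i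
  fin_cases i
  · simp; ring
  · simp
  · simp

theorem det3_sigmaLin (a b d : E3) :
    det3 (sigmaLin a) (sigmaLin b) (sigmaLin d) = - det3 a b d := by
  simp only [det3, sigmaLin_apply0, sigmaLin_apply1, sigmaLin_apply2]
  ring

theorem norm_sigmaLin (d : E3) : ‖sigmaLin d‖ = ‖d‖ := by
  rw [← sq_eq_sq₀ (norm_nonneg _) (norm_nonneg _), norm_sq_eq3, norm_sq_eq3]
  simp only [sigmaLin_apply0, sigmaLin_apply1, sigmaLin_apply2]
  ring

theorem sigmaLin_ne_zero {d : E3} (hd : d ≠ 0) : sigmaLin d ≠ 0 := by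
  rw [← norm_ne_zero_iff, norm_sigmaLin]
  exact norm_ne_zero_iff.mpr hd

/-- `σ` undoes `(x,y,z) ↦ (y,-x,√2-z)`. -/
theorem sigma_swap (x y z : ℝ) : sigma (!₂[y, -x, Real.sqrt 2 - z] : E3) = !₂[x, y, z] := by
  ext i
  fin_cases i <;> simp

/-- the image under `σ` of an oblique triangular cylinder is the oblique cylinder of the images. -/
theorem sigma_mem_oblique {X d P Q R : E3}
    (h : X ∈ {x : E3 | ∃ b ∈ convexHull ℝ ({P, Q, R} : Set E3), ∃ t : ℝ, x = b + t • d}) :
    sigma X ∈ {x : E3 | ∃ b ∈ convexHull ℝ ({sigma P, sigma Q, sigma R} : Set E3), ∃ t : ℝ,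
      x = b + t • sigmaLin d} := by
  obtain ⟨b, hb, t, rfl⟩ := h
  obtain ⟨α, β, γ, hα, hβ, hγ, hs, rfl⟩ := exists_of_mem_convexHull_triple hb
  refine ⟨sigma (α • P + β • Q + γ • R), ?_, t, sigma_add_smul _ _ _⟩
  rw [sigma_comb hs]
  exact mem_convexHull_triple hα hβ hγ hs

/-- `σ` preserves the base area of oblique cylinders. -/
theorem ofOblique_sigma_area (d P Q R : E3) (hd : d ≠ 0) :
    (TriCyl.ofOblique (sigmaLin d) (sigma P) (sigma Q) (sigma R) (sigmaLin_ne_zero hd)).area =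
      (TriCyl.ofOblique d P Q R hd).area := by
  rw [TriCyl.ofOblique_area, TriCyl.ofOblique_area, sigma_sub, sigma_sub, det3_sigmaLin, abs_neg,
    norm_sigmaLin]

/-- appending two families of cylinders. -/
theorem exists_append {N : ℕ} (Tl Tu : Fin N → TriCyl) :
    ∃ T : Fin (N + N) → TriCyl,
      ((⋃ i, (Tl i).carrier) ∪ (⋃ i, (Tu i).carrier) ⊆ ⋃ i, (T i).carrier) ∧
      ∑ i, (T i).area = ∑ i, (Tl i).area + ∑ i, (Tu i).area := by
  refine ⟨Fin.append Tl Tu, ?_, ?_⟩
  · rintro x (hx | hx)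
    · obtain ⟨i, hi⟩ := Set.mem_iUnion.mp hx
      refine Set.mem_iUnion.mpr ⟨Fin.castAdd N i, ?_⟩
      rw [Fin.append_left]
      exact hi
    · obtain ⟨i, hi⟩ := Set.mem_iUnion.mp hx
      refine Set.mem_iUnion.mpr ⟨Fin.natAdd N i, ?_⟩
      rw [Fin.append_right]
      exact hi
  · rw [Fin.sum_univ_add]
    simp only [Fin.append_left, Fin.append_right]

end Crest.Agent.Tetra
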